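import Mathlib
import Vale.Agent.P268.Hol

/-!
# Riemann extension theorem in several variables (holomorphic and bounded off a hypersurface)
-/

open Set Filter Metric Topology

noncomputable section

namespace Vale.Agent.P267.H338

theorem eventually_ne_of_ne {f : ℂ → ℂ} {D : Set ℂ} (hD : IsPreconnected D)
    (hf : AnalyticOnNhd ℂ f D) {a : ℂ} (ha : a ∈ D) (hfa : f a ≠ 0) {t : ℂ} (ht : t ∈ D) :
    ∀ᶠ s in 𝓝[≠] t, f s ≠ 0 := by
  rcases (hf t ht).eventually_eq_zero_or_eventually_ne_zero with h | h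
  · exact absurd (hf.eqOn_zero_of_preconnected_of_eventuallyEq_zero hD ht h ha) hfa
  · exact h

variable {E F : Type*} [NormedAddCommGroup E] [NormedSpace ℂ E] [FiniteDimensional ℂ E]
  [NormedAddCommGroup F] [NormedSpace ℂ F] [CompleteSpace F]

/-- One variable: a holomorphic function, bounded off the (isolated) zeros of `h`, satisfies the
mean value formula on circles without zeros of `h`. -/
theorem circle_formula {h : ℂ → ℂ} {k : ℂ → F} {C R r : ℝ} (hr : 0 < r) (hrR : r < R)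
    (hh : DifferentiableOn ℂ h (ball 0 R)) (hiso : ∀ t ∈ ball (0 : ℂ) R, ∀ᶠ s in 𝓝[≠] t, h s ≠ 0)
    (hk : DifferentiableOn ℂ k (ball 0 R ∩ {t | h t ≠ 0}))
    (hb : ∀ t ∈ ball (0 : ℂ) R, h t ≠ 0 → ‖k t‖ ≤ C) (h0 : h 0 ≠ 0)
    (hrne : ∀ t ∈ sphere (0 : ℂ) r, h t ≠ 0) :
    (2 * Real.pi * Complex.I : ℂ)⁻¹ • (∮ t in C(0, r), t⁻¹ • k t) = k 0 := by
  classical
  let K : ℂ → F := fun t => if h t ≠ 0 then k t else limUnder (𝓝[≠] t) k
  have hopen : IsOpen (ball (0 : ℂ) R ∩ {t | h t ≠ 0}) :=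
    hh.continuousOn.isOpen_inter_preimage isOpen_ball isOpen_ne
  have hK : DifferentiableOn ℂ K (ball 0 R) := by
    intro t₀ ht₀
    apply DifferentiableAt.differentiableWithinAt
    by_cases hz : h t₀ = 0
    · obtain ⟨ε, hε, hball⟩ := Metric.mem_nhdsWithin_iff.1
        ((hiso t₀ ht₀).and (mem_nhdsWithin_of_mem_nhds (isOpen_ball.mem_nhds ht₀)))
      have hb' : ∀ t ∈ ball t₀ ε \ {t₀}, t ∈ ball (0 : ℂ) R ∩ {t | h t ≠ 0} := by
        intro t ht
        have := hball ⟨ht.1, ht.2⟩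
        exact ⟨this.2, this.1⟩
      have h1 : DifferentiableOn ℂ (Function.update k t₀ (limUnder (𝓝[≠] t₀) k)) (ball t₀ ε) := by
        refine Complex.differentiableOn_update_limUnder_of_bddAbove (ball_mem_nhds t₀ hε)
          (hk.mono hb') ?_
        refine ⟨C, ?_⟩
        rintro _ ⟨t, ht, rfl⟩
        exact hb t (hb' t ht).1 (hb' t ht).2
      have h2 : K =ᶠ[𝓝 t₀] Function.update k t₀ (limUnder (𝓝[≠] t₀) k) := by
        filter_upwards [ball_mem_nhds t₀ hε] with t ht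
        by_cases htt : t = t₀
        · subst htt
          simp [K, hz]
        · rw [Function.update_of_ne htt]
          exact if_pos (hb' t ⟨ht, htt⟩).2
      exact (h1.differentiableAt (ball_mem_nhds t₀ hε)).congr_of_eventuallyEq h2
    · have h1 : DifferentiableAt ℂ k t₀ := hk.differentiableAt (hopen.mem_nhds ⟨ht₀, hz⟩)
      refine h1.congr_of_eventuallyEq ?_
      filter_upwards [hopen.mem_nhds ⟨ht₀, hz⟩] with t ht
      exact if_pos ht.2
  have hsub : closedBall (0 : ℂ) r ⊆ ball 0 R := closedBall_subset_ball hrR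
  have h2 := (hK.mono hsub).circleIntegral_sub_inv_smul (mem_ball_self hr)
  have h3 : (∮ t in C(0, r), t⁻¹ • k t) = ∮ t in C(0, r), (t - 0)⁻¹ • K t := by
    refine circleIntegral.integral_congr hr.le ?_
    intro t ht
    have : K t = k t := if_pos (hrne t ht)
    simp [this]
  rw [h3, h2]
  have hK0 : K 0 = k 0 := if_pos h0
  rw [hK0, smul_smul, inv_mul_cancel₀, one_smul]
  simp [Real.pi_ne_zero]

/-- **Riemann extension theorem**: a holomorphic function, defined and bounded off the zero set of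
the holomorphic function `g` (not identically zero near `p`), extends holomorphically over `p`. -/
theorem riemann_extension {g : E → ℂ} {u : E → F} {V : Set E} (hV : IsOpen V) {p : E} (hp : p ∈ V)
    (hg : DifferentiableOn ℂ g V) (hne : ∃ᶠ x in 𝓝 p, g x ≠ 0)
    (hu : DifferentiableOn ℂ u (V ∩ {x | g x ≠ 0})) {C : ℝ}
    (hb : ∀ x ∈ V, g x ≠ 0 → ‖u x‖ ≤ C) :
    ∃ W, IsOpen W ∧ p ∈ W ∧ W ⊆ V ∧ ∃ U : E → F, DifferentiableOn ℂ U W ∧
      ∀ x ∈ W, g x ≠ 0 → U x = u x := by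
  obtain ⟨ρ, hρ, hρV⟩ := Metric.isOpen_iff.1 hV p hp
  obtain ⟨q, hqn, hq⟩ : ∃ q, g q ≠ 0 ∧ q ∈ ball p (ρ / 4) :=
    (hne.and_eventually (ball_mem_nhds p (by positivity))).exists
  set v : E := q - p with hv
  have hvn : ‖v‖ < ρ / 4 := by rwa [hv, ← dist_eq_norm]
  have hVg : IsOpen (V ∩ {x | g x ≠ 0}) := hg.continuousOn.isOpen_inter_preimage hV isOpen_ne
  -- the lines stay in `V`
  have hline : ∀ x ∈ ball p (ρ / 2), ∀ t ∈ ball (0 : ℂ) 2, x + t • v ∈ V := by
    intro x hx t ht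
    apply hρV
    rw [mem_ball, dist_eq_norm]
    have h1 : ‖t • v‖ ≤ 2 * ‖v‖ := by
      rw [norm_smul]
      have : ‖t‖ < 2 := by simpa using ht
      nlinarith [norm_nonneg v]
    have h2 : ‖x - p‖ < ρ / 2 := by rwa [← dist_eq_norm]
    calc ‖x + t • v - p‖ = ‖(x - p) + t • v‖ := by congr 1; abel
      _ ≤ ‖x - p‖ + ‖t • v‖ := norm_add_le _ _
      _ < ρ := by linarith
  have hlc : ∀ x : E, Differentiable ℂ (fun t : ℂ => x + t • v) := fun x => by fun_prop
  -- analyticity along the lines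
  have hlg : ∀ x ∈ ball p (ρ / 2), DifferentiableOn ℂ (fun t : ℂ => g (x + t • v)) (ball 0 2) :=
    fun x hx => hg.comp (hlc x).differentiableOn fun t ht => hline x hx t ht
  have han : ∀ x ∈ ball p (ρ / 2), AnalyticOnNhd ℂ (fun t : ℂ => g (x + t • v)) (ball 0 2) :=
    fun x hx => (hlg x hx).analyticOnNhd isOpen_ball
  have hpc : IsPreconnected (ball (0 : ℂ) 2) := (convex_ball 0 2).isPreconnected
  -- the radius
  obtain ⟨r, hr, hr1, hrne⟩ : ∃ r : ℝ, 0 < r ∧ r < 2 ∧ ∀ t ∈ sphere (0 : ℂ) r, g (p + t • v) ≠ 0 := by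
    have h1 : ∀ᶠ t in 𝓝[≠] (0 : ℂ), g (p + t • v) ≠ 0 := by
      refine eventually_ne_of_ne hpc (han p (mem_ball_self (half_pos hρ))) (a := 1) (by simp) ?_
        (by simp)
      have : p + (1 : ℂ) • v = q := by rw [hv]; simp
      rwa [this]
    obtain ⟨ε, hε, hball⟩ := Metric.mem_nhdsWithin_iff.1 h1
    refine ⟨min (ε / 2) 1, by positivity, by linarith [min_le_right (ε / 2) 1], ?_⟩
    intro t ht
    have htn : ‖t‖ = min (ε / 2) 1 := by simpa using ht
    have hpos : 0 < min (ε / 2) 1 := by positivity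
    refine hball ⟨?_, ?_⟩
    · rw [mem_ball_zero_iff, htn]
      linarith [min_le_left (ε / 2) 1]
    · rw [mem_compl_singleton_iff]
      intro h
      rw [h, norm_zero] at htn
      linarith
  -- the tube
  have hcont : Continuous (fun y : E × ℂ => y.1 + y.2 • v) := by fun_prop
  have hO : IsOpen ((fun y : E × ℂ => y.1 + y.2 • v) ⁻¹' (V ∩ {x | g x ≠ 0}) ∩
      (univ ×ˢ {t : ℂ | t ≠ 0})) := (hVg.preimage hcont).inter (isOpen_univ.prod isOpen_ne)
  obtain ⟨U, W, hU, hW, hpU, hSW, hUW⟩ := generalized_tube_lemma (s := {p}) isCompact_singleton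
    (t := sphere (0 : ℂ) r) (isCompact_sphere 0 r) hO (by
      rintro ⟨x, t⟩ ⟨hx, ht⟩
      rw [mem_singleton_iff] at hx
      change x = p at hx
      subst hx
      have htn : ‖t‖ = r := by simpa using ht
      refine ⟨⟨hline _ (mem_ball_self (half_pos hρ)) t ?_, hrne t ht⟩, trivial, ?_⟩
      · rw [mem_ball_zero_iff, htn]; exact hr1
      · intro h0
        change t = 0 at h0
        rw [h0, norm_zero] at htn
        linarith)
  let U' := U ∩ ball p (ρ / 2)
  have hU' : IsOpen U' := hU.inter isOpen_ball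
  let G : E × ℂ → F := fun y => y.2⁻¹ • u (y.1 + y.2 • v)
  have hG : DifferentiableOn ℂ G (U' ×ˢ W) := by
    rintro ⟨x, t⟩ ⟨hx, ht⟩
    have h1 := hUW (show (x, t) ∈ U ×ˢ W from ⟨hx.1, ht⟩)
    apply DifferentiableAt.differentiableWithinAt
    have h2 : DifferentiableAt ℂ u (x + t • v) := hu.differentiableAt (hVg.mem_nhds h1.1)
    have h3 : DifferentiableAt ℂ (fun y : E × ℂ => y.1 + y.2 • v) (x, t) := by fun_prop
    have h4 : DifferentiableAt ℂ (fun y : E × ℂ => u (y.1 + y.2 • v)) (x, t) := h2.comp (x, t) h3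
    have h5 : DifferentiableAt ℂ (fun y : E × ℂ => y.2⁻¹) (x, t) := by
      have : DifferentiableAt ℂ (fun y : E × ℂ => y.2) (x, t) := by fun_prop
      exact this.inv h1.2.2
    exact h5.smul h4
  refine ⟨U', hU', ⟨hpU rfl, mem_ball_self (half_pos hρ)⟩, ?_,
    fun x => (2 * Real.pi * Complex.I : ℂ)⁻¹ • ∮ t in C(0, r), G (x, t), ?_, ?_⟩
  · intro x hx
    have := hline x hx.2 0 (by simp)
    simpa using this
  · exact (Vale.Agent.P268.differentiableOn_circleIntegral hr.le hU' hW hSW hG).const_smul _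
  · intro x hx hgx
    have hsne : ∀ t ∈ sphere (0 : ℂ) r, g (x + t • v) ≠ 0 := by
      intro t ht
      exact (hUW (show (x, t) ∈ U ×ˢ W from ⟨hx.1, hSW ht⟩)).1.2
    have h0 : g (x + (0 : ℂ) • v) ≠ 0 := by simpa using hgx
    have h1 : DifferentiableOn ℂ (fun t : ℂ => u (x + t • v))
        (ball 0 2 ∩ {t : ℂ | g (x + t • v) ≠ 0}) := by
      refine hu.comp (hlc x).differentiableOn ?_
      rintro t ⟨ht, ht'⟩
      exact ⟨hline x hx.2 t ht, ht'⟩
    have h2 := circle_formula (h := fun t => g (x + t • v)) (k := fun t => u (x + t • v)) hr hr1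
      (hlg x hx.2) (fun t ht => eventually_ne_of_ne hpc (han x hx.2) (a := 0) (by simp) h0 ht)
      h1 (fun t ht htn => hb _ (hline x hx.2 t ht) htn) h0 hsne
    simp only [zero_smul, add_zero] at h2
    exact h2

/-- Two continuous functions which agree where `g ≠ 0` agree, if `g` is not identically zero near
any point. -/
theorem eqOn_of_dense {X Y : Type*} [TopologicalSpace X] [TopologicalSpace Y] [T2Space Y]
    {W : Set X} (hW : IsOpen W) {P : X → Prop} (hd : ∀ x ∈ W, ∃ᶠ y in 𝓝 x, P y) {a b : X → Y}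
    (ha : ContinuousOn a W) (hb : ContinuousOn b W) (h : ∀ x ∈ W, P x → a x = b x) :
    ∀ x ∈ W, a x = b x := by
  intro x hx
  by_contra hne
  have h1 : ∀ᶠ y in 𝓝 x, a y ≠ b y := by
    have ha' := ha.continuousAt (hW.mem_nhds hx)
    have hb' := hb.continuousAt (hW.mem_nhds hx)
    obtain ⟨A, B, hA, hB, haA, hbB, hAB⟩ := t2_separation hne
    filter_upwards [ha' (hA.mem_nhds haA), hb' (hB.mem_nhds hbB)] with y hy hy' hyy
    exact Set.disjoint_left.1 hAB hy (by rw [mem_preimage] at hy'; rwa [hyy])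
  obtain ⟨y, hy, hyn, hyW⟩ := ((hd x hx).and_eventually (h1.and (hW.mem_nhds hx))).exists
  exact hyn (h y hyW hy)

/-- Two holomorphic functions whose absolute values differ by a positive continuous factor differ
by a holomorphic unit. -/
theorem exists_unit_of_norm_eq {g g' : E → ℂ} {V : Set E} (hV : IsOpen V) {p : E} (hp : p ∈ V)
    (hg : DifferentiableOn ℂ g V) (hg' : DifferentiableOn ℂ g' V)
    (hne : ∀ x ∈ V, ∃ᶠ y in 𝓝 x, g' y ≠ 0) {ψ : E → ℝ} (hψ : ContinuousOn ψ V)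
    (h : ∀ x ∈ V, ‖g x‖ = ‖g' x‖ * Real.exp (ψ x)) :
    ∃ W, IsOpen W ∧ p ∈ W ∧ W ⊆ V ∧ ∃ u : E → ℂ, DifferentiableOn ℂ u W ∧
      ∀ x ∈ W, u x ≠ 0 ∧ g x = u x * g' x := by
  -- shrink `V` so that `ψ` is bounded
  obtain ⟨V', hV', hpV', hV'V, hbd⟩ : ∃ V', IsOpen V' ∧ p ∈ V' ∧ V' ⊆ V ∧
      ∀ x ∈ V', ψ x ≤ ψ p + 1 := by
    refine ⟨V ∩ ψ ⁻¹' (Set.Iio (ψ p + 1)), hψ.isOpen_inter_preimage hV isOpen_Iio, ⟨hp, ?_⟩,
      inter_subset_left, fun x hx => le_of_lt hx.2⟩
    change ψ p < ψ p + 1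
    linarith
  have hVg : IsOpen (V' ∩ {x | g' x ≠ 0}) :=
    (hg'.mono hV'V).continuousOn.isOpen_inter_preimage hV' isOpen_ne
  have hu : DifferentiableOn ℂ (fun x => g x / g' x) (V' ∩ {x | g' x ≠ 0}) := by
    intro x hx
    have h1 := (hg.differentiableAt (hV.mem_nhds (hV'V hx.1)))
    have h2 := (hg'.differentiableAt (hV.mem_nhds (hV'V hx.1)))
    have h3 : DifferentiableAt ℂ (fun x => g x * (g' x)⁻¹) x := h1.mul (h2.inv hx.2)
    simpa only [div_eq_mul_inv] using h3.differentiableWithinAt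
  have hb : ∀ x ∈ V', g' x ≠ 0 → ‖g x / g' x‖ ≤ Real.exp (ψ p + 1) := by
    intro x hx hgx
    rw [norm_div, h x (hV'V hx), mul_div_cancel_left₀ _ (norm_ne_zero_iff.2 hgx)]
    exact Real.exp_le_exp.2 (hbd x hx)
  obtain ⟨W, hW, hpW, hWV, U, hU, hUeq⟩ := riemann_extension hV' hpV' (hg'.mono hV'V)
    (hne p hp) hu hb
  have hdW : ∀ x ∈ W, ∃ᶠ y in 𝓝 x, g' y ≠ 0 := fun x hx => hne x (hV'V (hWV hx))
  have h1 : ∀ x ∈ W, g x = U x * g' x := by
    refine eqOn_of_dense hW hdW ((hg.mono (hWV.trans hV'V)).continuousOn)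
      (hU.continuousOn.mul (hg'.mono (hWV.trans hV'V)).continuousOn) ?_
    intro x hx hgx
    rw [hUeq x hx hgx, div_mul_cancel₀ _ hgx]
  have h2 : ∀ x ∈ W, ‖U x‖ = Real.exp (ψ x) := by
    refine eqOn_of_dense hW hdW hU.continuousOn.norm
      (Real.continuous_exp.comp_continuousOn (hψ.mono (hWV.trans hV'V))) ?_
    intro x hx hgx
    have h3 := h x (hV'V (hWV hx))
    rw [h1 x hx, norm_mul, mul_comm] at h3
    exact mul_left_cancel₀ (norm_ne_zero_iff.2 hgx) h3
  refine ⟨W, hW, hpW, hWV.trans hV'V, U, hU, fun x hx => ⟨?_, h1 x hx⟩⟩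
  rw [← norm_ne_zero_iff, h2 x hx]
  exact (Real.exp_pos _).ne'

end Vale.Agent.P267.H338
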